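import Mathlib

namespace Vale.Agent.Results.P199.TwoQuadratic

open Submodule

/-- Two elements `a`, `b` of an algebra over a field, each a root of a monic quadratic, generate a
finite-dimensional subalgebra as soon as the element `r a + p b - a b - b a` (which commutes with
`a` and `b`) is integral. -/
theorem adjoin_two_quadratic {F A : Type*} [Field F] [Ring A] [Algebra F A]
    (a b : A) (p q r s : F)
    (ha : a * a = p • a + q • (1 : A)) (hb : b * b = r • b + s • (1 : A))
    (hc : IsIntegral F (r • a + p • b - a * b - b * a)) :
    FiniteDimensional F (Algebra.adjoin F ({a, b} : Set A)) := by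
  set c : A := r • a + p • b - a * b - b * a with hcdef
  have eaab : a * a * b = p • (a * b) + q • b := by
    rw [ha, add_mul, smul_mul_assoc, smul_mul_assoc, one_mul]
  have ebaa : b * (a * a) = p • (b * a) + q • b := by
    rw [ha, mul_add, mul_smul_comm, mul_smul_comm, mul_one]
  have ebba : b * b * a = r • (b * a) + s • a := by
    rw [hb, add_mul, smul_mul_assoc, smul_mul_assoc, one_mul]
  have eabb : a * (b * b) = r • (a * b) + s • a := by
    rw [hb, mul_add, mul_smul_comm, mul_smul_comm, mul_one]
  have hca : c * a = a * c := by
    have h1 : c * a = r • (a * a) + p • (b * a) - a * b * a - b * (a * a) := by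
      rw [hcdef]; simp only [sub_mul, add_mul, smul_mul_assoc, mul_assoc]
    have h2 : a * c = r • (a * a) + p • (a * b) - a * a * b - a * b * a := by
      rw [hcdef]; simp only [mul_sub, mul_add, mul_smul_comm, mul_assoc]
    rw [h1, h2, ebaa, eaab, ha]
    module
  have hcb : c * b = b * c := by
    have h1 : c * b = r • (a * b) + p • (b * b) - a * (b * b) - b * a * b := by
      rw [hcdef]; simp only [sub_mul, add_mul, smul_mul_assoc, mul_assoc]
    have h2 : b * c = r • (b * a) + p • (b * b) - b * a * b - b * b * a := by
      rw [hcdef]; simp only [mul_sub, mul_add, mul_smul_comm, mul_assoc]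
    rw [h1, h2, eabb, ebba, hb]
    module
  set C : Subalgebra F A := Algebra.adjoin F ({c} : Set A) with hC
  have hCfg : C.toSubmodule.FG := hc.fg_adjoin_singleton
  set W : Submodule F A := Submodule.span F ({1, a, b, a * b} : Set A) with hW
  have hWfg : W.FG := Submodule.fg_span (by simp)
  set M : Submodule F A := C.toSubmodule * W with hM
  have hMfg : M.FG := hCfg.mul hWfg
  have hCa : ∀ u ∈ C, u * a = a * u := by
    intro u hu
    induction hu using Algebra.adjoin_induction with
    | mem x hx => rw [Set.mem_singleton_iff.mp hx]; exact hca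
    | algebraMap t => exact (Algebra.commutes t a)
    | add x y _ _ hx hy => rw [add_mul, mul_add, hx, hy]
    | mul x y _ _ hx hy => rw [mul_assoc, hy, ← mul_assoc, hx, mul_assoc]
  have hCb : ∀ u ∈ C, u * b = b * u := by
    intro u hu
    induction hu using Algebra.adjoin_induction with
    | mem x hx => rw [Set.mem_singleton_iff.mp hx]; exact hcb
    | algebraMap t => exact (Algebra.commutes t b)
    | add x y _ _ hx hy => rw [add_mul, mul_add, hx, hy]
    | mul x y _ _ hx hy => rw [mul_assoc, hy, ← mul_assoc, hx, mul_assoc]
  have h1W : (1 : A) ∈ W := subset_span (by simp)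
  have haW : a ∈ W := subset_span (by simp)
  have hbW : b ∈ W := subset_span (by simp)
  have habW : a * b ∈ W := subset_span (by simp)
  have hWM : W ≤ M := by
    intro w hw
    have : (1 : A) * w ∈ M := Submodule.mul_mem_mul (one_mem C) hw
    simpa using this
  have hcC : c ∈ C := Algebra.subset_adjoin (Set.mem_singleton c)
  have hCM : ∀ u ∈ C, ∀ m ∈ M, u * m ∈ M := by
    intro u hu m hm
    have : u * m ∈ C.toSubmodule * M := Submodule.mul_mem_mul hu hm
    rw [hM, ← mul_assoc, (Subalgebra.isIdempotentElem_toSubmodule C).eq] at this
    exact this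
  -- left multiplication by a and b maps W into M
  have haWM : ∀ w ∈ W, a * w ∈ M := by
    intro w hw
    induction hw using Submodule.span_induction with
    | mem x hx =>
      rcases hx with rfl | rfl | rfl | rfl
      · rw [mul_one]; exact hWM haW
      · rw [ha]; exact hWM (W.add_mem (W.smul_mem p haW) (W.smul_mem q h1W))
      · exact hWM habW
      · rw [← mul_assoc, eaab]; exact hWM (W.add_mem (W.smul_mem p habW) (W.smul_mem q hbW))
    | zero => rw [mul_zero]; exact M.zero_mem
    | add x y _ _ hx hy => rw [mul_add]; exact M.add_mem hx hy
    | smul t x _ hx => rw [mul_smul_comm]; exact M.smul_mem t hx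
  have hba : b * a = r • a + p • b - a * b - c := by rw [hcdef]; abel
  have hbWM : ∀ w ∈ W, b * w ∈ M := by
    intro w hw
    induction hw using Submodule.span_induction with
    | mem x hx =>
      rcases hx with rfl | rfl | rfl | rfl
      · rw [mul_one]; exact hWM hbW
      · rw [hba]
        refine M.sub_mem (hWM (W.sub_mem (W.add_mem (W.smul_mem r haW) (W.smul_mem p hbW)) habW)) ?_
        have : c * 1 ∈ M := Submodule.mul_mem_mul hcC h1W
        simpa using this
      · rw [hb]; exact hWM (W.add_mem (W.smul_mem r hbW) (W.smul_mem s h1W))
      · have e : b * (a * b) = (r * p) • b + (p * s) • (1 : A) - s • a - c * b := by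
          rw [← mul_assoc, hba]
          simp only [sub_mul, add_mul, smul_mul_assoc, mul_assoc]
          rw [eabb, hb]
          module
        rw [e]
        refine M.sub_mem (hWM (W.sub_mem (W.add_mem (W.smul_mem _ hbW) (W.smul_mem _ h1W))
          (W.smul_mem s haW))) ?_
        exact Submodule.mul_mem_mul hcC hbW
    | zero => rw [mul_zero]; exact M.zero_mem
    | add x y _ _ hx hy => rw [mul_add]; exact M.add_mem hx hy
    | smul t x _ hx => rw [mul_smul_comm]; exact M.smul_mem t hx
  have haM : ∀ m ∈ M, a * m ∈ M := by
    intro m hm
    refine Submodule.mul_induction_on hm (fun u hu w hw => ?_) (fun x y hx hy => ?_)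
    · rw [← mul_assoc, ← hCa u hu, mul_assoc]
      exact hCM u hu _ (haWM w hw)
    · rw [mul_add]; exact M.add_mem hx hy
  have hbM : ∀ m ∈ M, b * m ∈ M := by
    intro m hm
    refine Submodule.mul_induction_on hm (fun u hu w hw => ?_) (fun x y hx hy => ?_)
    · rw [← mul_assoc, ← hCb u hu, mul_assoc]
      exact hCM u hu _ (hbWM w hw)
    · rw [mul_add]; exact M.add_mem hx hy
  have key : ∀ x ∈ Algebra.adjoin F ({a, b} : Set A), ∀ m ∈ M, x * m ∈ M := by
    intro x hx
    induction hx using Algebra.adjoin_induction with
    | mem x hx =>
      rcases hx with rfl | rfl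
      · exact haM
      · exact hbM
    | algebraMap t => intro m hm; rw [← Algebra.smul_def]; exact M.smul_mem t hm
    | add x y _ _ hx hy => intro m hm; rw [add_mul]; exact M.add_mem (hx m hm) (hy m hm)
    | mul x y _ _ hx hy => intro m hm; rw [mul_assoc]; exact hx _ (hy m hm)
  have hle : (Algebra.adjoin F ({a, b} : Set A)).toSubmodule ≤ M := by
    intro x hx
    have := key x hx 1 (hWM h1W)
    simpa using this
  have : FiniteDimensional F M := Module.Finite.iff_fg.mpr hMfg
  exact Submodule.finiteDimensional_of_le hle

/-- Kurosh's problem for division rings, case of two generators of degree at most two: if the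
division ring `D` is algebraic over its centre `F` and `a`, `b` are roots of monic quadratic
polynomials over `F`, then the `F`-subalgebra generated by `a` and `b` is finite-dimensional
over `F`. -/
theorem result {D : Type*} [DivisionRing D] [Algebra.IsAlgebraic (Subring.center D) D]
    (a b : D) (p q r s : Subring.center D)
    (ha : a * a = (p : D) * a + (q : D)) (hb : b * b = (r : D) * b + (s : D)) :
    FiniteDimensional (Subring.center D)
      (Algebra.adjoin (Subring.center D) ({a, b} : Set D)) := by
  apply adjoin_two_quadratic a b p q r s
  · rw [ha]; simp [Subring.smul_def]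
  · rw [hb]; simp [Subring.smul_def]
  · exact (Algebra.IsAlgebraic.isAlgebraic _).isIntegral

end Vale.Agent.Results.P199.TwoQuadratic
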